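import Vale.Agent.P224.R2.H460.Box2
import Vale.Agent.P224.R2.H662.Inst
import Vale.Agent.P224.R2.H662.SBig
import Vale.Agent.P224.R2.H662.RList

/-!
The large defect, `h ≥ 3/10`, for `m ≥ 400`.
-/

namespace Vale.Agent.P224.R2.H358

open MeasureTheory Module Function Set Filter Vale.Agent.P224.R2.H470 Vale.Agent.P224.R2.H460
  Vale.Agent.P224.R2.H662
open Vale.Agent.P224.R2.H728 (BM T0Data LSq hh m2 m1 uu zd ze_diag)
open scoped RealInnerProductSpace Topology

set_option linter.unusedSectionVars false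

/-- the box of the large defect -/
def BB : Bx where
  κ := 3 / 20
  A0 := 1089 / 64
  c := 15641 / 1600
  ε := 1 / 1000
  η := 43 / 1000
  κ1 := 97 / 250
  c1 := 1583 / 500
  m1 := 51 / 1000
  m0 := 400
  x0 := 13 / 100
  x1 := 201 / 10
  x2 := 0
  x3 := 0
  f1 := 0
  f2 := 0
  f3 := 0
  y0 := 0
  y1 := 0
  y2 := 0
  y3 := 0
  g1 := 461 / 200
  g2 := 103 / 5
  g3 := 0
  a := 33 / 50
  b := 53 / 2
  dT := 1 / 1000
  Ts := 2451 / 100000

/-- the cells of the levels -/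
def BBl : List (ℚ × ℚ × ℚ) :=
  [(237 / 50, 0, 83 / 100), (1161 / 250, 0, 41 / 50), (909 / 200, 0, 81 / 100),
   (889 / 200, 0, 79 / 100), (4343 / 1000, 0, 39 / 50), (4237 / 1000, 0, 19 / 25),
   (413 / 100, 0, 3 / 4), (4019 / 1000, 0, 73 / 100), (781 / 200, 0, 18 / 25),
   (947 / 250, 0, 7 / 10), (3667 / 1000, 0, 69 / 100), (1771 / 500, 0, 67 / 100),
   (853 / 250, 0, 33 / 50), (3277 / 1000, 0, 16 / 25), (3137 / 1000, 0, 31 / 50),
   (2989 / 1000, 0, 3 / 5), (1417 / 500, 0, 59 / 100), (2671 / 1000, 0, 57 / 100),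
   (312 / 125, 0, 11 / 20), (577 / 250, 0, 53 / 100), (263 / 125, 0, 51 / 100),
   (1877 / 1000, 0, 49 / 100), (1619 / 1000, 0, 47 / 100), (1311 / 1000, 0, 9 / 20),
   (113 / 125, 0, 43 / 100)]

theorem BB_head : BB.head = true := by decide +kernel

theorem BB_cells : BB.cells 0 BBl = true := by decide +kernel

theorem BB_fin : BB.fin (4714 / 10000) 1 (18 / 5) 4 (263 / 250) (37 / 10000) = true := by
  decide +kernel

section

variable {X : Type*} {E : Type*} [NormedAddCommGroup E] [InnerProductSpace ℝ E]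
  [FiniteDimensional ℝ E] [MeasurableSpace E] [BorelSpace E]
variable [TopologicalSpace X] [MeasurableSpace X] [SecondCountableTopology X]
variable [CompactSpace X] [BorelSpace X] {μ : Measure X} [IsProbabilityMeasure μ] {m : ℕ}
  {p n : X → E} {z : X → E} {T : ℝ} {ι : Type*} [Fintype ι]

/-- the normal part for a large defect -/
lemma big_normal [Nontrivial E] (h : OneP μ m p n) (hm : 1 ≤ m) (hd : finrank ℝ E = m + 2)
    (hP : ∀ v : E, ∫ x, ⟪n x, v⟫ ^ 2 ∂μ ≤ 13 / 100 * ‖v‖ ^ 2) (hz : Continuous z)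
    (hH : 3 / 10 ≤ ∫ x, ‖z x‖ ^ 2 ∂μ)
    (h4 : ∫ x, ‖z x‖ ^ 4 ∂μ ≤ (1089 / 64 + 1 / 100) * ∫ x, ‖z x‖ ^ 2 ∂μ) (J : E →L[ℝ] E)
    (h0 : 0 < T) (h1 : T ≤ 1 / 2) :
    cw m T * SS μ m p n z T ≤ cw m T * S1 μ m p z J T
      + (13 / 100 + T * (201 / 10)) * ∫ x, ‖z x‖ ^ 2 ∂μ := by
  set H := ∫ x, ‖z x‖ ^ 2 ∂μ with hHd
  have hH0 : 0 < H := by linarith
  have k1 := SS_crude h hm hd hP h0 (T1 := 1 / 2) h1 (by norm_num) hz
  rw [← hHd] at k1
  have k2 : √(∫ x, ‖z x‖ ^ 4 ∂μ) ≤ 7535 / 1000 * H := by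
    rw [Real.sqrt_le_left (by positivity)]
    have k0 := mul_le_mul_of_nonneg_right hH hH0.le
    nlinarith
  have k3 : 0 ≤ √(∫ x, ‖z x‖ ^ 4 ∂μ) := Real.sqrt_nonneg _
  have k4 : 13 / 100 * H + T / (1 / 2) * (1 / (1 - (1 / 2) ^ 2)) * √(∫ x, ‖z x‖ ^ 4 ∂μ)
      ≤ (13 / 100 + T * (201 / 10)) * H := by
    have k5 := mul_le_mul_of_nonneg_left k2 h0.le
    have k6 : 0 ≤ T * H := by positivity
    norm_num
    linarith
  have k7 : 0 ≤ 13 / 100 * H + T / (1 / 2) * (1 / (1 - (1 / 2) ^ 2)) * √(∫ x, ‖z x‖ ^ 4 ∂μ) := by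
    positivity
  have k8 : 0 ≤ T ^ 2 * (13 / 100 * H
      + T / (1 / 2) * (1 / (1 - (1 / 2) ^ 2)) * √(∫ x, ‖z x‖ ^ 4 ∂μ)) := by positivity
  have k9 : 0 ≤ cw m T * S1 μ m p z J T := by
    refine mul_nonneg (cw_pos h0.le (by linarith)).le ?_
    exact PI_nonneg h0.le (by linarith) _ h.np fun u => sq_nonneg _
  linarith

/-- the cross term for a large defect -/
lemma big_cross [Nontrivial E] [DecidableEq ι] (h : OneP μ m p n) (hm : 400 ≤ m)
    (hd : finrank ℝ E = m + 2) (b : OrthonormalBasis ι ℝ E)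
    (hT0 : T0Data μ m (cob b p) (cob b n)) (hz : Continuous z)
    (ha : ∀ i k, m1f μ p b (fun x => ⟪z x, b i⟫) k = -m1f μ p b (fun x => ⟪z x, b k⟫) i)
    (hP : ∀ v : E, ∫ x, ⟪n x, v⟫ ^ 2 ∂μ ≤ 13 / 100 * ‖v‖ ^ 2)
    (hH : 3 / 10 ≤ ∫ x, ‖z x‖ ^ 2 ∂μ) (he : ‖∫ x, z x ∂μ‖ ^ 2 ≤ 1 / 30000)
    (h0 : 0 < T) (h1 : T ≤ 1 / 2) :
    cw m T * Cr μ m p n z T ≤ T * (461 / 200 + T * (103 / 5)) * ∫ x, ‖z x‖ ^ 2 ∂μ := by
  set H := ∫ x, ‖z x‖ ^ 2 ∂μ with hHd
  set e := ‖∫ x, z x ∂μ‖ with hed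
  have hH0 : 0 < H := by linarith
  have he0 : 0 ≤ e := norm_nonneg _
  have hmR : (400 : ℝ) ≤ m := by exact_mod_cast hm
  have k1 := Cr_le2 (n := n) h hm hd b (qb_of_T0 b (by positivity) hT0) hz ha h0 h1
    (ν := 13 / 100) (by norm_num) (hP (∫ y, z y ∂μ))
  rw [← hHd, ← hed] at k1
  have e1 : e ^ 2 ≤ 1 / 9000 * H := by linarith
  have e2 : e ≤ 1055 / 100000 * √H := by
    refine abs_le_of_sq_le_sq' ?_ (by positivity) |>.2
    rw [mul_pow, Real.sq_sqrt hH0.le]
    linarith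
  have e3 : e * √H ≤ 1055 / 100000 * H := by
    calc e * √H ≤ 1055 / 100000 * √H * √H :=
          mul_le_mul_of_nonneg_right e2 (Real.sqrt_nonneg _)
      _ = 1055 / 100000 * (√H ^ 2) := by ring
      _ = _ := by rw [Real.sq_sqrt hH0.le]
  have s20 : (20 : ℝ) ≤ √(m + 1) := by
    rw [Real.le_sqrt' (by norm_num)]
    linarith
  have e4 : 6 / √((m : ℝ) + 1) ≤ 3 / 10 := by
    rw [div_le_iff₀ (by linarith)]
    linarith
  have e5 : √(13 / 100 : ℝ) ≤ 361 / 1000 := by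
    rw [Real.sqrt_le_left (by norm_num)]
    norm_num
  have e6 : (4 : ℝ) / (m + 2) ≤ 1 / 100 := by
    rw [div_le_iff₀ (by linarith)]
    linarith
  have e7 : 0 ≤ e * √H := by positivity
  have p1 : (7 / 2 + 4 / ((m : ℝ) + 2)) * e ^ 2 ≤ (7 / 2 + 1 / 100) * (1 / 9000 * H) :=
    mul_le_mul (by linarith) e1 (sq_nonneg _) (by norm_num)
  have p2 : (6 / √((m : ℝ) + 1) + 4 * √(13 / 100)) * (e * √H)
      ≤ (3 / 10 + 4 * (361 / 1000)) * (1055 / 100000 * H) :=
    mul_le_mul (by linarith) e3 e7 (by norm_num)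
  have p3 : T * ((7 / 2 + 4 / ((m : ℝ) + 2)) * e ^ 2
      + (6 / √((m : ℝ) + 1) + 4 * √(13 / 100)) * (e * √H))
      ≤ T * ((7 / 2 + 1 / 100) * (1 / 9000 * H)
        + (3 / 10 + 4 * (361 / 1000)) * (1055 / 100000 * H)) :=
    mul_le_mul_of_nonneg_left (by linarith) h0.le
  have p4 : 0 ≤ T * H := by positivity
  refine k1.trans ?_
  nlinarith

/-- the analytic facts of the large defect -/
theorem bxData_big [DecidableEq ι] [Nontrivial E] (h : OneP μ m p n) (hm : 400 ≤ m)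
    (hd : finrank ℝ E = m + 2)
    (b : OrthonormalBasis ι ℝ E) {j : ι → ℝ} (hT0 : T0Data μ m (cob b p) (cob b n))
    (hL : LSq μ (Matrix.diagonal j) (cob b p) (cob b n))
    (hz : Continuous z) (hzJ : ∀ x, z x = n x - dop b j (p x))
    (hP : ∀ v : E, ∫ x, ⟪n x, v⟫ ^ 2 ∂μ ≤ 13 / 100 * ‖v‖ ^ 2)
    (hH : 3 / 10 ≤ hh μ (Matrix.diagonal j) (cob b p) (cob b n))
    (he : ‖∫ x, n x ∂μ‖ ^ 2 ≤ 1 / 30000)
    (hr : ∫ x, max (ad b j p n x - 1089 / 64) 0 ^ 2 ∂μ
        ≤ (1 / 1000 * hh μ (Matrix.diagonal j) (cob b p) (cob b n)) ^ 2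
      ∧ ∫ x, ad b j p n x ^ 2 ∂μ
        ≤ (1089 / 64 + 1 / 100) * hh μ (Matrix.diagonal j) (cob b p) (cob b n)
      ∧ ∫ x, qd b j p x * ad b j p n x ∂μ
        ≤ (625 / 64 + 1 / 100) * hh μ (Matrix.diagonal j) (cob b p) (cob b n)) :
    BxData μ m p n z BB (dop b j) := by
  have eH : hh μ (Matrix.diagonal j) (cob b p) (cob b n) = ∫ x, ‖z x‖ ^ 2 ∂μ := by
    rw [hh_norm b j]
    simp only [hzJ]
  rw [eH] at hH hr
  have hmR : (400 : ℝ) ≤ m := by exact_mod_cast hm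
  have ha := anti_of_LSq b hL hzJ
  have hν : ∀ a, m2 μ (cob b n) (cob b n) a a ≤ 13 / 100 := fun a => by
    have h1 := hP (b a)
    rw [b.norm_eq_one, one_pow, mul_one] at h1
    refine le_trans (le_of_eq ?_) h1
    unfold m2 cob
    exact integral_congr_ae (Eventually.of_forall fun x => (sq _).symm)
  obtain ⟨hj, -⟩ := jj_bounds b hT0 hL (by norm_num) hν
  rw [← int_z_eq h (by omega) b hzJ] at he
  obtain ⟨q1, q2, q3, q4⟩ := rare_z b h.cp hz hzJ hr
  exact
    { one := h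
      hm := by
        simp only [BB]
        push_cast
        exact hmR
      hz := hz
      hJ := fun u v => dop_symm b j u v
      hzJ := hzJ
      hH := by linarith
      hκ := fun v => by
        refine (dop_norm_le b hj v).trans (mul_le_mul_of_nonneg_right ?_ (sq_nonneg _))
        simp only [BB]
        push_cast
        norm_num
        linarith
      hε := by
        simp only [BB]
        push_cast
        exact q1
      hc := by
        simp only [BB]
        push_cast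
        refine q4.trans (le_of_eq ?_)
        norm_num
      hX := fun T hT => by
        have hT1 : T ≤ 1 / 2 := by
          have := hT.2
          simp only [BB] at this
          push_cast at this
          linarith
        have hch : BB.chR T = 13 / 100 + T * (201 / 10) := by
          simp only [Bx.chR, BB]
          push_cast
          ring
        have hff : BB.ffR T = 0 := by
          simp only [Bx.ffR, BB]
          push_cast
          ring
        rw [hch, hff, zero_mul, Real.sqrt_zero, mul_zero, add_zero]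
        exact big_normal h (by omega) hd hP hz hH q2 (dop b j) hT.1 hT1
      hC := fun T hT => by
        have hT1 : T ≤ 1 / 2 := by
          have := hT.2
          simp only [BB] at this
          push_cast at this
          linarith
        have hgg : BB.ggR T = T * (461 / 200 + T * (103 / 5)) := by
          simp only [Bx.ggR, BB]
          push_cast
          ring
        rw [hgg]
        exact big_cross h hm hd b hT0 hz ha hP hH he hT.1 hT1 }

/-- **the level integral for a large defect** -/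
theorem big_c0 [DecidableEq ι] [Nontrivial E] (h : OneP μ m p n) (hm : 400 ≤ m)
    (hd : finrank ℝ E = m + 2)
    (b : OrthonormalBasis ι ℝ E) {j : ι → ℝ} (hT0 : T0Data μ m (cob b p) (cob b n))
    (hL : LSq μ (Matrix.diagonal j) (cob b p) (cob b n))
    (hz : Continuous z) (hzJ : ∀ x, z x = n x - dop b j (p x))
    (hP : ∀ v : E, ∫ x, ⟪n x, v⟫ ^ 2 ∂μ ≤ 13 / 100 * ‖v‖ ^ 2)
    (hH : 3 / 10 ≤ hh μ (Matrix.diagonal j) (cob b p) (cob b n))
    (he : ‖∫ x, n x ∂μ‖ ^ 2 ≤ 1 / 30000) :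
    37 / 10000 * hh μ (Matrix.diagonal j) (cob b p) (cob b n)
      ≤ ∫ T in (0 : ℝ)..(2 / 25), wq (4714 / 10000) 1 (18 / 5) T * (cw m T * LL μ m p z T) := by
  have hν : ∀ a, m2 μ (cob b n) (cob b n) a a ≤ 13 / 100 := fun a => by
    have h1 := hP (b a)
    rw [b.norm_eq_one, one_pow, mul_one] at h1
    refine le_trans (le_of_eq ?_) h1
    unfold m2 cob
    exact integral_congr_ae (Eventually.of_forall fun x => (sq _).symm)
  have hmem : (⟨13 / 100, 1089 / 64, 625 / 64, 1 / 32⟩ : RI) ∈ ris := by decide +kernel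
  have hr := rare_all hmem h b hT0 hL (ν := 13 / 100) (by norm_num) hν
    (by
      show (13 / 100 : ℝ) ≤ ((13 / 100 : ℚ) : ℝ)
      push_cast
      exact le_rfl)
    (by
      show (13 / 100 : ℝ) ^ 3 ≤ ((1 / 32 : ℚ) : ℝ) * _
      push_cast
      linarith)
  dsimp only at hr
  push_cast at hr
  have D := bxData_big h hm hd b hT0 hL hz hzJ hP hH he hr
  have hbox := box_c0 BB BB_head BB_cells BB_fin D (Tm := 2 / 25)
    (by
      simp only [BB]
      push_cast
      norm_num)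
    (by norm_num)
    (by
      push_cast
      norm_num)
  have eH : hh μ (Matrix.diagonal j) (cob b p) (cob b n) = ∫ x, ‖z x‖ ^ 2 ∂μ := by
    rw [hh_norm b j]
    simp only [hzJ]
  rw [eH]
  push_cast at hbox
  exact hbox

end

end Vale.Agent.P224.R2.H358
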