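import Vale.Agent.P224.R2.H358.BigC
import Vale.Agent.P224.R2.H460.Cl1

/-!
The law for a large defect, `h ≥ 3/10`, `m ≥ 400`.
-/

namespace Vale.Agent.P224.R2.H358

open MeasureTheory Set Filter Function Real Module Vale.Agent.P224 Vale.Agent.P224.FV
open Vale.Agent.P224.SM2 Vale.Agent.P224.R2.H820 Vale.Agent.P224.R2.H728
open Vale.Agent.P224.R2.H627 Vale.Agent.P224.R2.H582 Vale.Agent.P224.R2.H470
open Vale.Agent.P224.R2.H460
open Vale.Agent.P224.R2.H925 (Fra)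
open Vale.Agent.P224.R2.H484 (AbsTail)
open Vale.Agent.P224.R2.H662 (ad qd dop dop_symm hh_norm cob)
open scoped Topology RealInnerProductSpace ContDiff Manifold

set_option linter.unusedSectionVars false

section

variable {V W M : Type*} [NormedAddCommGroup V] [InnerProductSpace ℝ V] [FiniteDimensional ℝ V]
  [NormedAddCommGroup W] [InnerProductSpace ℝ W] [FiniteDimensional ℝ W]
  [TopologicalSpace M] [ChartedSpace V M]
  [MeasurableSpace V] [BorelSpace V] [MeasurableSpace M] [BorelSpace M]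
  [MeasurableSpace W] [BorelSpace W] [IsManifold 𝓘(ℝ, V) ∞ M]
  [CompactSpace M] [T2Space M]

/-- **The law for a large defect.** -/
theorem law_big [Nonempty M] (hm : 400 ≤ finrank ℝ V) (hW : finrank ℝ W = finrank ℝ V + 2)
    {F : M → W} (hF : SphImm V F) (hmin : ∀ x n, IsUnitNormal V F x n → meanCurv V F x n = 0)
    {N : M → W} (hNs : ContMDiff 𝓘(ℝ, V) 𝓘(ℝ, W) ∞ N) (hN : ∀ x, IsUnitNormal V F x (N x))
    (hinj : Injective F) {ι : Type*} [Fintype ι] [DecidableEq ι] (b : OrthonormalBasis ι ℝ W)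
    (j : ι → ℝ) {m : ℕ} (hmm : m = finrank ℝ V)
    (hL : LSq (nrm (volM V F)) (Matrix.diagonal j) (co b F) (co b N))
    {lam : ℝ → ℝ} {T1 : ℝ} (hfr : Fra m lam (beR m) T1)
    (hlam : ∀ T ∈ Ioo (0 : ℝ) (2 / 25), (1 - T ^ 2) * lam T ≤ 193 / 10)
    (hP : ∀ v : W, ∫ x, ⟪N x, v⟫ ^ 2 ∂(nrm (volM V F)) ≤ 13 / 100 * ‖v‖ ^ 2)
    (hH : 3 / 10 ≤ hh (nrm (volM V F)) (Matrix.diagonal j) (co b F) (co b N))
    (he : uu (nrm (volM V F)) (co b N) ≤ 1 / 30000)
    {β t : ℝ} (hM : MacF V F N m β)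
    (ht : AbsTail (volM V F) m F N (fun T => (1 - T ^ 2) * lam T) t) :
    2 * lamM m * (sphereVol m / (volM V F).real univ)
        + (β + 37 / 10000 * hh (nrm (volM V F)) (Matrix.diagonal j) (co b F) (co b N) - t)
      ≤ 1 + m * rM m 0 * uu (nrm (volM V F)) (co b N) := by
  subst hmm
  set m := finrank ℝ V with hmdef
  have hfin : IsFiniteMeasure (volM V F) := isFiniteMeasure_volM hF
  have hm1 : 1 ≤ m := by omega
  have hvpos : 0 < volM V F univ := volM_pos_of_isOpen hW hF isOpen_univ univ_nonempty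
  have hnz : NeZero (volM V F) := ⟨fun h => by rw [h] at hvpos; simp at hvpos⟩
  have hT0 : T0Data (nrm (volM V F)) m (co b F) (co b N) :=
    t0Data_of_min hm1 hW hF hmin hNs hN b
  have hprob : IsProbabilityMeasure (nrm (volM V F)) := hT0.prob
  have hone : OneP (nrm (volM V F)) m F N := oneP_nrm hW hF hmin hNs hN
  have hsc : SecondCountableTopology M := ChartedSpace.secondCountable_of_sigmaCompact V M
  have hnt : Nontrivial W := Module.nontrivial_of_finrank_pos (R := ℝ) (by omega)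
  obtain ⟨Bc, b1, b2, b3⟩ := hM
  obtain ⟨τ, t1, t2, t3⟩ := ht
  set z : M → W := fun x => N x - dop b j (F x) with hz
  have hzJ : ∀ x, z x = N x - dop b j (F x) := fun x => rfl
  have cz : Continuous z := hone.cn.sub ((dop b j).continuous.comp hone.cp)
  have he' : ‖∫ x, N x ∂(nrm (volM V F))‖ ^ 2 ≤ 1 / 30000 := by
    have e1 : ‖∫ x, N x ∂(nrm (volM V F))‖ ^ 2 = uu (nrm (volM V F)) (co b N) := by
      rw [← H662.norm_sq_sum b]
      refine Finset.sum_congr rfl fun a _ => ?_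
      rw [← inner_int hone.cn]
      rfl
    rw [e1]
    exact he
  have hbox := big_c0 hone hm hW b hT0 hL cz hzJ hP hH he'
  have hTs : (0 : ℝ) < 2 / 25 := by norm_num
  have key := law_S (by omega) hW hF hmin hNs hN hinj b rfl (J := dop b j) (dop_symm b j) hzJ
    hTs (by norm_num : (2 / 25 : ℝ) < 1) (w := wq (4714 / 10000) 1 (18 / 5)) (lam := lam)
    (β := beR m) (Bc := Bc) (τ := τ) (continuous_wq _ _ _).continuousOn hfr.hβ ?_ ?_ hfr.hrel
    (fun T hT => hfr.hpos T ⟨hT.1.le, hT.2⟩) b1 b2 t1 t2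
  · have e3 : uu (nrm (volM V F)) (co b N) = ∑ i, m1 (nrm (volM V F)) (co b N) i ^ 2 := rfl
    rw [e3]
    refine le_trans ?_ key
    have hbox' : 37 / 10000 * hh (nrm (volM V F)) (Matrix.diagonal j) (co b F) (co b N)
      ≤ ∫ T in (0 : ℝ)..(2 / 25), wq (4714 / 10000) 1 (18 / 5) T
        * (cw m T * LL (nrm (volM V F)) m F z T) := hbox
    linarith
  · intro T hT
    have hT7 : T < 7 / 10 := hT.2.trans (by norm_num)
    rw [beR_lt hT7]
    exact be_nonneg hm hT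
  · intro T hT
    have hT7 : T < 7 / 10 := hT.2.trans (by norm_num)
    rw [beR_lt hT7]
    exact hq_of hm hT (hlam T hT)

/-- **The large defect is excluded.** -/
theorem big_close [Nonempty M] (hm : 400 ≤ finrank ℝ V) (hW : finrank ℝ W = finrank ℝ V + 2)
    {F : M → W} (hF : SphImm V F) (hmin : ∀ x n, IsUnitNormal V F x n → meanCurv V F x n = 0)
    {N : M → W} (hNs : ContMDiff 𝓘(ℝ, V) 𝓘(ℝ, W) ∞ N) (hN : ∀ x, IsUnitNormal V F x (N x))
    (hinj : Injective F) {ι : Type*} [Fintype ι] [DecidableEq ι] (b : OrthonormalBasis ι ℝ W)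
    (j : ι → ℝ) {m : ℕ} (hmm : m = finrank ℝ V)
    (hL : LSq (nrm (volM V F)) (Matrix.diagonal j) (co b F) (co b N))
    {lam : ℝ → ℝ} {T1 : ℝ} (hfr : Fra m lam (beR m) T1)
    (hlam : ∀ T ∈ Ioo (0 : ℝ) (2 / 25), (1 - T ^ 2) * lam T ≤ 193 / 10)
    (hP : ∀ v : W, ∫ x, ⟪N x, v⟫ ^ 2 ∂(nrm (volM V F)) ≤ 13 / 100 * ‖v‖ ^ 2)
    (hH : 3 / 10 ≤ hh (nrm (volM V F)) (Matrix.diagonal j) (co b F) (co b N))
    (he : uu (nrm (volM V F)) (co b N) ≤ 1 / 30000)
    {t : ℝ} (ht : AbsTail (volM V F) m F N (fun T => (1 - T ^ 2) * lam T) t) (ht1 : t ≤ 1 / 10000)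
    {g : ℝ} (hg : m * rM m 0 ≤ g) (hg1 : g ≤ 1 / 2) {gp : ℝ} (hgp : gp ≤ 9 / 10000) :
    2 * lamM m * (sphereVol m / (volM V F).real univ) + gp ≤ 1 := by
  have key := law_big hm hW hF hmin hNs hN hinj b j hmm hL hfr hlam hP hH he
    (macF_zero (by omega) hW hF hmin hNs hN hmm) ht
  have hu0 : 0 ≤ uu (nrm (volM V F)) (co b N) := Finset.sum_nonneg fun i _ => sq_nonneg _
  have k1 : (m : ℝ) * rM m 0 * uu (nrm (volM V F)) (co b N)
      ≤ 1 / 2 * uu (nrm (volM V F)) (co b N) := mul_le_mul_of_nonneg_right (hg.trans hg1) hu0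
  linarith

end

end Vale.Agent.P224.R2.H358
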